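import Crest.Agent.R177.DefsCx
import Crest.Agent.R177.RelBasic

/-!
# The coned-off Cayley complex
-/

set_option autoImplicit false

namespace Crest.Agent.R177.ComplexAux

open Crest.Agent.R177

/-- `G × A` with the left multiplication action on the first factor -/
@[ext] structure GP (G A : Type) : Type where
  g : G
  a : A

instance {G A : Type} [Group G] : MulAction G (GP G A) where
  smul h p := ⟨h * p.g, p.a⟩
  one_smul p := by show GP.mk (1 * p.g) p.a = p; rw [one_mul]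
  mul_smul h k p := by show GP.mk (h * k * p.g) p.a = GP.mk (h * (k * p.g)) p.a; rw [mul_assoc]

theorem GP.smul_mk {G A : Type} [Group G] (h g : G) (a : A) :
    h • GP.mk g a = GP.mk (h * g) a := rfl

theorem GP.free {G A : Type} [Group G] (g : G) (x : GP G A) (h : g • x = x) : g = 1 := by
  have := congrArg GP.g h
  exact mul_eq_right.1 this

theorem GP.finite {G A : Type} [Group G] [Finite A] :
    Finite (MulAction.orbitRel.Quotient G (GP G A)) := by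
  refine Finite.of_surjective (fun a : A => (Quotient.mk _ (GP.mk (1 : G) a) :
    MulAction.orbitRel.Quotient G (GP G A))) ?_
  rintro ⟨⟨g, a⟩⟩
  refine ⟨a, Quotient.sound ?_⟩
  exact ⟨g⁻¹, by show g⁻¹ • GP.mk g a = _; rw [GP.smul_mk, inv_mul_cancel]⟩

variable {V E T : Type} (Γ : LG V E T)

/-- reachability as a setoid -/
def reachSetoid : Setoid V where
  r := Γ.Reach
  iseqv := ⟨fun _ => ⟨[], rfl⟩, fun ⟨_, h⟩ => ⟨_, Γ.isWalk_rev h⟩,
    fun ⟨_, h⟩ ⟨_, h'⟩ => ⟨_, Γ.isWalk_append h h'⟩⟩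

/-- components -/
abbrev Comp : Type := Quotient (reachSetoid Γ)

/-- the component of a vertex -/
def comp (x : V) : Comp Γ := Quotient.mk _ x

theorem isWalk_edge (e : E) : Γ.IsWalk (Γ.src e) [(e, true)] (Γ.tgt e) := ⟨rfl, rfl⟩

theorem comp_src (e : E) : comp Γ (Γ.src e) = comp Γ (Γ.tgt e) :=
  Quotient.sound ⟨_, isWalk_edge Γ e⟩

theorem reach_out (x : V) : Γ.Reach (comp Γ x).out x := Quotient.mk_out (s := reachSetoid Γ) x

/-- the complex -/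
def cx (ν : V → Γ.Grp) : Cx (GP Γ.Grp (Option (Comp Γ))) (GP Γ.Grp (T ⊕ V)) (GP Γ.Grp E) where
  s p := ⟨p.g, Sum.elim (fun _ => none) (fun x => some (comp Γ x)) p.a⟩
  t p := ⟨p.g * Sum.elim Γ.gen ν p.a, none⟩
  d0 p := ⟨p.g * ν (Γ.src p.a), Sum.inl (Γ.lab p.a)⟩
  d1 p := ⟨p.g, Sum.inr (Γ.tgt p.a)⟩
  d2 p := ⟨p.g, Sum.inr (Γ.src p.a)⟩

variable {Γ}

theorem simplicial {ν : V → Γ.Grp} (hν : Γ.IsPot ν) (hgen : ∀ t, Γ.gen t ≠ 1) :
    (cx Γ ν).Simplicial where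
  v0 f := by simp [cx, comp_src]
  v1 f := rfl
  v2 f := by simp [cx, hν f.a, mul_assoc]
  s_ne_t := by
    rintro ⟨g, t | x⟩ h
    · exact hgen t (by simpa [cx] using h)
    · simp [cx] at h

theorem act [Finite V] [Finite E] [Finite T] (ν : V → Γ.Grp) : (cx Γ ν).Act Γ.Grp where
  s_smul _ _ := rfl
  t_smul g e := by rcases e with ⟨h, a⟩; simp [cx, GP.smul_mk, mul_assoc]
  d0_smul g e := by rcases e with ⟨h, a⟩; simp [cx, GP.smul_mk, mul_assoc]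
  d1_smul _ _ := rfl
  d2_smul _ _ := rfl
  free := GP.free
  fin0 := GP.finite
  fin1 := GP.finite
  fin2 := GP.finite

theorem conn (ν : V → Γ.Grp) (P : GP Γ.Grp (Option (Comp Γ)) → Prop)
    (hP : ∀ e, P ((cx Γ ν).s e) ↔ P ((cx Γ ν).t e)) (x y : GP Γ.Grp (Option (Comp Γ))) :
    P x → P y := by
  have h1 : ∀ g : Γ.Grp, ∀ h, P ⟨h, none⟩ ↔ P ⟨h * g, none⟩ := by
    intro g
    have hg : g ∈ Subgroup.closure (Set.range Γ.gen) := by rw [Γ.closure_gen]; trivial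
    induction hg using Subgroup.closure_induction with
    | mem g hg => obtain ⟨t, rfl⟩ := hg; exact fun h => hP ⟨h, Sum.inl t⟩
    | one => simp
    | mul a b _ _ iha ihb => intro h; rw [iha h, ihb, mul_assoc]
    | inv a _ iha => intro h; rw [iha (h * a⁻¹), inv_mul_cancel_right]
  have h2 : ∀ x, P x ↔ P ⟨1, none⟩ := by
    rintro ⟨g, _ | ⟨⟨x⟩⟩⟩
    · rw [h1 g 1, one_mul]
    · exact (hP ⟨g, Sum.inr x⟩).trans (by rw [h1 (g * ν x) 1, one_mul]; rfl)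
  rw [h2 x, h2 y]; exact id

theorem word_cons (d : E × Bool) (l : List (E × Bool)) :
    Γ.word (d :: l) = Γ.word [d] * Γ.word l := Γ.word_append [d] l

theorem word_true (e : E) : Γ.word [(e, true)] = FreeGroup.of (Γ.lab e) := rfl

theorem word_false (e : E) : Γ.word [(e, false)] = (FreeGroup.of (Γ.lab e))⁻¹ := rfl

section sc

variable {H : Type} [Group H] (f : GP Γ.Grp (T ⊕ V) → H)

/-- parallel transport along a generator -/
def sigma (t : T) : Equiv.Perm (Γ.Grp × H) where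
  toFun p := (p.1 * Γ.gen t, p.2 * f ⟨p.1, Sum.inl t⟩)
  invFun p := (p.1 * (Γ.gen t)⁻¹, p.2 * (f ⟨p.1 * (Γ.gen t)⁻¹, Sum.inl t⟩)⁻¹)
  left_inv p := by simp
  right_inv p := by simp

/-- parallel transport along a word -/
def rho : FreeGroup T →* (Equiv.Perm (Γ.Grp × H))ᵐᵒᵖ :=
  FreeGroup.lift fun t => MulOpposite.op (sigma f t)

theorem rho_mul (w w' : FreeGroup T) (p : Γ.Grp × H) :
    (rho f (w * w')).unop p = (rho f w').unop ((rho f w).unop p) := by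
  rw [map_mul, MulOpposite.unop_mul, Equiv.Perm.mul_apply]

theorem rho_of (t : T) (p : Γ.Grp × H) :
    (rho f (FreeGroup.of t)).unop p = (p.1 * Γ.gen t, p.2 * f ⟨p.1, Sum.inl t⟩) := by
  rw [rho, FreeGroup.lift_apply_of]; rfl

theorem rho_of_inv (t : T) (p : Γ.Grp × H) :
    (rho f (FreeGroup.of t)⁻¹).unop p =
      (p.1 * (Γ.gen t)⁻¹, p.2 * (f ⟨p.1 * (Γ.gen t)⁻¹, Sum.inl t⟩)⁻¹) := by
  rw [map_inv, rho, FreeGroup.lift_apply_of]; rfl

theorem rho_fst (w : FreeGroup T) : ∀ p : Γ.Grp × H, ((rho f w).unop p).1 = p.1 * Γ.proj w := by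
  induction w using FreeGroup.induction_on with
  | C1 => simp
  | of t => intro p; rw [rho_of]; rfl
  | inv_of t _ => intro p; rw [rho_of_inv, map_inv]; rfl
  | mul a b iha ihb => intro p; rw [rho_mul, ihb, iha, map_mul, mul_assoc]

theorem rho_walk {ν : V → Γ.Grp} (hν : Γ.IsPot ν)
    (hf : ∀ τ, f ((cx Γ ν).d2 τ) * f ((cx Γ ν).d0 τ) = f ((cx Γ ν).d1 τ)) (g : Γ.Grp) (y : V)
    (l : List (E × Bool)) : ∀ (x : V) (h : H), Γ.IsWalk x l y →
      (rho f (Γ.word l)).unop (g * ν x, h) =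
        (g * ν y, h * (f ⟨g, Sum.inr x⟩)⁻¹ * f ⟨g, Sum.inr y⟩) := by
  induction l with
  | nil =>
    intro x h hw
    obtain rfl : x = y := hw
    have : Γ.word [] = 1 := rfl
    simp [this]
  | cons d l ih =>
    rintro x h ⟨rfl, hw⟩
    rw [word_cons, rho_mul]
    obtain ⟨e, _ | _⟩ := d
    · have h1 : f ⟨g, Sum.inr (Γ.src e)⟩ * f ⟨g * ν (Γ.src e), Sum.inl (Γ.lab e)⟩ =
        f ⟨g, Sum.inr (Γ.tgt e)⟩ := hf ⟨g, e⟩
      have h2 : g * ν (Γ.st (e, false)) * (Γ.gen (Γ.lab e))⁻¹ = g * ν (Γ.src e) := by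
        show g * ν (Γ.tgt e) * _ = _
        rw [hν e]; group
      rw [word_false, rho_of_inv]
      simp only [h2]
      rw [show Γ.src e = Γ.en (e, false) from rfl, ih _ _ hw]
      show (_, _ * (f ⟨g * ν (Γ.src e), Sum.inl (Γ.lab e)⟩)⁻¹ * (f ⟨g, Sum.inr (Γ.src e)⟩)⁻¹ * _) =
        (_, _ * (f ⟨g, Sum.inr (Γ.tgt e)⟩)⁻¹ * _)
      rw [← h1]; group
    · have h1 : f ⟨g, Sum.inr (Γ.src e)⟩ * f ⟨g * ν (Γ.src e), Sum.inl (Γ.lab e)⟩ =
        f ⟨g, Sum.inr (Γ.tgt e)⟩ := hf ⟨g, e⟩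
      have h2 : g * ν (Γ.st (e, true)) * Γ.gen (Γ.lab e) = g * ν (Γ.tgt e) := by
        show g * ν (Γ.src e) * _ = _
        rw [hν e]; group
      rw [word_true, rho_of]
      simp only [h2]
      rw [show Γ.tgt e = Γ.en (e, true) from rfl, ih _ _ hw]
      show (_, _ * f ⟨g * ν (Γ.src e), Sum.inl (Γ.lab e)⟩ * (f ⟨g, Sum.inr (Γ.tgt e)⟩)⁻¹ * _) =
        (_, _ * (f ⟨g, Sum.inr (Γ.src e)⟩)⁻¹ * _)
      rw [← h1]; group

theorem sc {ν : V → Γ.Grp} (hν : Γ.IsPot ν)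
    (hf : ∀ τ, f ((cx Γ ν).d2 τ) * f ((cx Γ ν).d0 τ) = f ((cx Γ ν).d1 τ)) :
    ∃ h : GP Γ.Grp (Option (Comp Γ)) → H, ∀ e, h ((cx Γ ν).s e) * f e = h ((cx Γ ν).t e) := by
  have hrel : ∀ r ∈ Γ.rels, FreeGroup.lift (fun t => MulOpposite.op (sigma f t)) r = 1 := by
    rintro r ⟨x, l, hw, rfl⟩
    apply MulOpposite.unop_injective
    ext1 ⟨g, h⟩
    have := rho_walk f hν hf (g * (ν x)⁻¹) x l x h hw
    simpa [rho] using this
  let Φ : Γ.Grp →* (Equiv.Perm (Γ.Grp × H))ᵐᵒᵖ := PresentedGroup.toGroup hrel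
  have hΦ : ∀ w, Φ (Γ.proj w) = rho f w := fun _ => rfl
  let h0 : Γ.Grp → H := fun g => ((Φ g).unop (1, 1)).2
  have h1 : ∀ g, (Φ g).unop (1, 1) = (g, h0 g) := by
    intro g
    obtain ⟨w, rfl⟩ := PresentedGroup.mk_surjective Γ.rels g
    exact Prod.ext ((rho_fst f w _).trans (one_mul _)) rfl
  have h2 : ∀ g w, h0 (g * Γ.proj w) = ((rho f w).unop (g, h0 g)).2 := by
    intro g w
    simp only [h0]
    rw [map_mul, MulOpposite.unop_mul, Equiv.Perm.mul_apply, h1, hΦ]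
  refine ⟨fun p => Option.elim p.a (h0 p.g)
    fun k => h0 (p.g * ν k.out) * (f ⟨p.g, Sum.inr k.out⟩)⁻¹, ?_⟩
  rintro ⟨g, t | x⟩
  · show h0 g * f ⟨g, Sum.inl t⟩ = h0 (g * Γ.proj (FreeGroup.of t))
    rw [h2, rho_of]
  · obtain ⟨l, hl⟩ := reach_out Γ x
    show h0 (g * ν (comp Γ x).out) * (f ⟨g, Sum.inr (comp Γ x).out⟩)⁻¹ * f ⟨g, Sum.inr x⟩ =
      h0 (g * ν x)
    rw [Γ.pot_walk hν hl, ← mul_assoc g, h2, rho_walk f hν hf g x l _ _ hl]

end sc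

theorem exists_theta (ν : V → Γ.Grp) (uniq : ∀ c, Γ.Rel ν 1 c → c = 0) :
    ∃ θ : FreeGroup T → (Γ.Grp × E →₀ ℤ), (∀ w c, Γ.Rel ν w c → θ w = c) ∧
      ∀ w w', Γ.proj w = 1 → Γ.proj w' = 1 → θ (w * w') = θ w + θ w' := by
  classical
  let θ : FreeGroup T → (Γ.Grp × E →₀ ℤ) := fun w =>
    if h : Γ.proj w = 1 then (Γ.rel_exists ν h).choose else 0
  have h1 : ∀ w, Γ.proj w = 1 → Γ.Rel ν w (θ w) := fun w h => by
    simp only [θ, dif_pos h]; exact (Γ.rel_exists ν h).choose_spec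
  have h2 : ∀ w c, Γ.Rel ν w c → θ w = c := fun w c h => by
    have := Γ.rel_mul (h1 w (Γ.rel_proj h)) (Γ.rel_inv h)
    rw [mul_inv_cancel] at this
    exact eq_of_sub_eq_zero (by rw [sub_eq_add_neg]; exact uniq _ this)
  exact ⟨θ, h2, fun w w' h h' => h2 _ _ (Γ.rel_mul (h1 w h) (h1 w' h'))⟩

theorem exists_a0 {ν : V → Γ.Grp} (hν : Γ.IsPot ν) (uniq : ∀ c, Γ.Rel ν 1 c → c = 0) :
    ∃ a : GP Γ.Grp (T ⊕ V) → (Γ.Grp × E →₀ ℤ), ∀ τ,
      a ((cx Γ ν).d2 τ) + a ((cx Γ ν).d0 τ) - a ((cx Γ ν).d1 τ) = Finsupp.single (τ.g, τ.a) 1 := by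
  obtain ⟨θ, hθ, hadd⟩ := exists_theta ν uniq
  choose s hs using PresentedGroup.mk_surjective Γ.rels
  replace hs : ∀ g, Γ.proj (s g) = g := hs
  choose p hp using reach_out Γ
  let Θ : Γ.Grp → FreeGroup T → (Γ.Grp × E →₀ ℤ) := fun g w =>
    θ (s g * w * (s (g * Γ.proj w))⁻¹)
  have hker : ∀ g w, Γ.proj (s g * w * (s (g * Γ.proj w))⁻¹) = 1 := fun g w => by
    simp [hs]
  have hΘ : ∀ g w w', Θ g (w * w') = Θ g w + Θ (g * Γ.proj w) w' := fun g w w' => by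
    simp only [Θ]
    rw [← hadd _ _ (hker _ _) (hker _ _), map_mul, ← mul_assoc g]
    congr 1; group
  refine ⟨fun q => Sum.elim (fun t => Θ q.g (FreeGroup.of t))
    (fun x => Θ (q.g * ν (comp Γ x).out) (Γ.word (p x)) - Γ.chain q.g (p x)) q.a, ?_⟩
  rintro ⟨g, e⟩
  show Θ (g * ν (comp Γ (Γ.src e)).out) (Γ.word (p (Γ.src e))) - Γ.chain g (p (Γ.src e)) +
    Θ (g * ν (Γ.src e)) (FreeGroup.of (Γ.lab e)) -
    (Θ (g * ν (comp Γ (Γ.tgt e)).out) (Γ.word (p (Γ.tgt e))) - Γ.chain g (p (Γ.tgt e))) =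
    Finsupp.single (g, e) 1
  have w1 := hp (Γ.src e)
  have w2 := hp (Γ.tgt e)
  rw [← comp_src] at w2 ⊢
  generalize (comp Γ (Γ.src e)).out = b at w1 w2 ⊢
  generalize p (Γ.src e) = l1 at w1 ⊢
  generalize p (Γ.tgt e) = l2 at w2 ⊢
  have w3 := Γ.isWalk_append (Γ.isWalk_append w1 (isWalk_edge Γ e)) (Γ.isWalk_rev w2)
  have r1 := hθ _ _ (LG.Rel.step _ _ (s (g * ν b)) b _ w3 LG.Rel.one)
  have k1 := Γ.proj_closed w3
  rw [hs, mul_inv_cancel_right, zero_add, one_mul, Γ.chain_append, Γ.chain_append, Γ.chain_rev,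
    Γ.word_append, Γ.word_append, Γ.word_rev, word_true] at r1
  rw [Γ.word_append, Γ.word_append, Γ.word_rev, word_true] at k1
  have c1 : Γ.chain g [(e, true)] = Finsupp.single (g, e) 1 := by simp [LG.chain]
  have e1 := hΘ (g * ν b) (Γ.word l1) (FreeGroup.of (Γ.lab e))
  rw [mul_assoc g, ← Γ.pot_walk hν w1] at e1
  have e2 := hΘ (g * ν b) (Γ.word l1 * FreeGroup.of (Γ.lab e) * (Γ.word l2)⁻¹) (Γ.word l2)
  rw [inv_mul_cancel_right, k1, mul_one] at e2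
  have e3 : Θ (g * ν b) (Γ.word l1 * FreeGroup.of (Γ.lab e) * (Γ.word l2)⁻¹) =
      Γ.chain g l1 + Γ.chain g [(e, true)] + -Γ.chain g l2 := by
    simp only [Θ]
    rw [k1, mul_one]; exact r1
  rw [e1, e3, c1] at e2
  rw [← sub_eq_zero] at e2 ⊢
  rw [← e2]; abel

theorem acyclic {ν : V → Γ.Grp} (hν : Γ.IsPot ν) (uniq : ∀ c, Γ.Rel ν 1 c → c = 0) :
    (cx Γ ν).Acyclic where
  ne := ⟨⟨1, none⟩⟩
  conn := conn ν
  sc _ _ f hf := sc f hν hf
  h2 A _ o := by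
    obtain ⟨a, ha⟩ := exists_a0 hν uniq
    refine ⟨fun q => Finsupp.linearCombination ℤ (fun p : Γ.Grp × E => o ⟨p.1, p.2⟩) (a q),
      fun τ => ?_⟩
    rw [← map_add, ← map_sub, ha]; simp

end Crest.Agent.R177.ComplexAux
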